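import Vale.Agent.P181.R2.H151.MDefs
import Vale.Agent.P181.R2.H866.NHL
import Vale.Agent.P181.R2.H940.NDescent

/-!
P181: families of forms with heavy slots, and the vanishing of the forms with `QQ s`.
-/

set_option autoImplicit false

open MvPolynomial

namespace Vale.Agent.P181.TM

open Vale.Agent.P181 Vale.Agent.P181.H536 Vale.Agent.P181.H280 Vale.Agent.P181.TN

/-- A family of forms on `m` slots, multilinear in `h` further (heavy) slots. -/
abbrev Fam (n h m : ℕ) : Type := MultilinearMap ℂ (fun _ : Fin h => Sn n) (Fm n m)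

/-- The `i`-th argument is a form of degree `d i`. -/
def DgV {n h : ℕ} (d : Fin h → ℕ) (B : Fin h → Sn n) : Prop := ∀ i, B i ∈ linS (n + 2) ^ d i

/-- Joint invariance under the shears. -/
def InvR (b : ℕ) {n h m : ℕ} (d : Fin h → ℕ) (R : Fam n h m) : Prop :=
  ∀ z ∈ ZZ n, ∀ w ∈ ZZ n, ∀ B : Fin h → Sn n, DgV d B → ∀ P : Fin m → Sn n, Dg b P →
    R (fun i => shr n z w (B i)) (fun i => shr n z w (P i)) = R B P

/-- Joint homogeneity. -/
def HomR (b : ℕ) {n h m : ℕ} (d : Fin h → ℕ) (τ : ℕ) (R : Fam n h m) : Prop :=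
  ∀ c : ℂ, c ≠ 0 → ∀ B : Fin h → Sn n, DgV d B → ∀ P : Fin m → Sn n, Dg b P →
    R (fun i => scal n c (B i)) (fun i => scal n c (P i)) = c ^ τ * R B P

/-- Fixing the first argument, as a linear map. -/
noncomputable def curL {n m : ℕ} (x : Sn n) : Fm n (m + 1) →ₗ[ℂ] Fm n m where
  toFun F := F.curryLeft x
  map_add' F G := by
    ext P
    rfl
  map_smul' c F := by
    ext P
    rfl

/-- The family with the first slot fixed. -/
noncomputable def fixR {n h m : ℕ} (x : Sn n) (R : Fam n h (m + 1)) : Fam n h m :=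
  (curL x).compMultilinearMap R

lemma fixR_apply {n h m : ℕ} (x : Sn n) (R : Fam n h (m + 1)) (B : Fin h → Sn n) :
    fixR x R B = (R B).curryLeft x := rfl

/-- The family with a new heavy slot. -/
noncomputable def heavyR {n h m : ℕ} (v : Sn n) (R : Fam n h (m + 1)) : Fam n (h + 1) m :=
  LinearMap.uncurryLeft
    { toFun := fun x => fixR (v * x) R
      map_add' := by
        intro x y
        ext B P
        simp only [fixR_apply, mul_add, map_add, _root_.add_apply]
      map_smul' := by
        intro c x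
        ext B P
        simp only [fixR_apply, mul_smul_comm, map_smul, _root_.smul_apply,
          RingHom.id_apply] }

lemma heavyR_apply {n h m : ℕ} (v : Sn n) (R : Fam n h (m + 1)) (B : Fin (h + 1) → Sn n) :
    heavyR v R B = (R (fun i => B i.succ)).curryLeft (v * B 0) := rfl

lemma shr_expand {n : ℕ} {z w : Sn n} (hz : z ∈ ZZ n) (hw : w ∈ ZZ n) :
    ∀ (N : ℕ) (A : Sn n), A ∈ U2 n ^ N → ∃ B : ℕ → Sn n,
    (∀ j, j < N → B j ∈ ZZ n ^ (j + 1) * U2 n ^ (N - (j + 1))) ∧
      shr n z w A = A + ∑ j ∈ Finset.range N, B j := by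
  intro N
  induction N with
  | zero =>
    intro A hA
    rw [pow_zero, Submodule.mem_one] at hA
    obtain ⟨r, rfl⟩ := hA
    refine ⟨fun _ => 0, fun j hj => absurd hj (Nat.not_lt_zero j), ?_⟩
    rw [AlgHom.commutes, Finset.range_zero, Finset.sum_empty, add_zero]
  | succ N ih =>
    intro A hA
    rw [pow_succ] at hA
    induction hA using Submodule.mul_induction_on' with
    | mem_mul_mem x hx y hy =>
      obtain ⟨B, hB, hB'⟩ := ih x hx
      set v := shr n z w y - y with hv
      have hvZ : v ∈ ZZ n := shr_U_sub hz hw hy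
      have hy' : shr n z w y = y + v := by rw [hv]; abel
      refine ⟨fun j => (if j < N then B j * y else 0) + (if j = 0 then x * v else B (j - 1) * v),
        ?_, ?_⟩
      · intro j hj
        have hj2 : N + 1 - (j + 1) = N - j := by omega
        rw [hj2]
        refine Submodule.add_mem _ ?_ ?_
        · split_ifs with h
          · have h3 : N - j = N - (j + 1) + 1 := by omega
            rw [h3, pow_succ (U2 n), ← mul_assoc]
            exact Submodule.mul_mem_mul (hB j h) hy
          · exact Submodule.zero_mem _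
        · split_ifs with h
          · subst h
            rw [mul_comm x v, zero_add, pow_one, Nat.sub_zero]
            exact Submodule.mul_mem_mul hvZ hx
          · have h4 : N - j = N - (j - 1 + 1) := by omega
            rw [h4, pow_succ (ZZ n) j, mul_assoc, mul_comm (ZZ n), ← mul_assoc]
            have h5 := hB (j - 1) (by omega)
            have h6 : j - 1 + 1 = j := by omega
            rw [h6] at h5 ⊢
            exact Submodule.mul_mem_mul h5 hvZ
      · rw [map_mul, hB', hy', Finset.sum_add_distrib]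
        have hs1 : ∑ j ∈ Finset.range (N + 1), (if j < N then B j * y else 0) =
            ∑ j ∈ Finset.range N, B j * y := by
          rw [Finset.sum_range_succ, if_neg (lt_irrefl N), add_zero]
          exact Finset.sum_congr rfl fun j hj => by rw [if_pos (Finset.mem_range.1 hj)]
        have hs2 : ∑ j ∈ Finset.range (N + 1), (if j = 0 then x * v else B (j - 1) * v) =
            x * v + ∑ j ∈ Finset.range N, B j * v := by
          rw [Finset.sum_range_succ']
          simp only [Nat.add_eq_zero_iff, one_ne_zero, and_false, if_false, if_true,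
            Nat.add_sub_cancel]
          rw [add_comm]
        rw [hs1, hs2, ← Finset.sum_mul, ← Finset.sum_mul]
        ring
    | add x _ y _ hx hy =>
      obtain ⟨B, hB, hB'⟩ := hx
      obtain ⟨C, hC, hC'⟩ := hy
      refine ⟨fun j => B j + C j, fun j hj => Submodule.add_mem _ (hB j hj) (hC j hj), ?_⟩
      rw [map_add, hB', hC', Finset.sum_add_distrib]
      abel

section Light

variable {n h m b k τ : ℕ} {d : Fin h → ℕ}

/-- The family vanishes when the first slot has order more than `k`. -/
def TopR (b k : ℕ) {n h m : ℕ} (d : Fin h → ℕ) (R : Fam n h (m + 1)) : Prop :=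
  ∀ j, k < j → j ≤ b → ∀ w ∈ ZZ n ^ j, ∀ A ∈ U2 n ^ (b - j), ∀ B : Fin h → Sn n, DgV d B →
    Van b ((R B).curryLeft (w * A))

lemma DgV_shr {z w : Sn n} (hz : z ∈ ZZ n) (hw : w ∈ ZZ n) {B : Fin h → Sn n} (hB : DgV d B) :
    DgV d (fun i => shr n z w (B i)) := fun i => shr_mem hz hw (hB i)

lemma Dg_shr {z w : Sn n} (hz : z ∈ ZZ n) (hw : w ∈ ZZ n) {P : Fin m → Sn n} (hP : Dg b P) :
    Dg b (fun i => shr n z w (P i)) := fun i => shr_mem hz hw (hP i)

lemma cons_shr {z w : Sn n} (x : Sn n) (P : Fin m → Sn n) :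
    (fun i : Fin (m + 1) => shr n z w ((Fin.cons x P : Fin (m + 1) → Sn n) i)) =
      Fin.cons (shr n z w x) (fun i => shr n z w (P i)) := by
  funext i
  refine Fin.cases ?_ (fun j => ?_) i
  · simp only [Fin.cons_zero]
  · simp only [Fin.cons_succ]

lemma cons_scal {c : ℂ} (x : Sn n) (P : Fin m → Sn n) :
    (fun i : Fin (m + 1) => scal n c ((Fin.cons x P : Fin (m + 1) → Sn n) i)) =
      Fin.cons (scal n c x) (fun i => scal n c (P i)) := by
  funext i
  refine Fin.cases ?_ (fun j => ?_) i
  · simp only [Fin.cons_zero]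
  · simp only [Fin.cons_succ]

lemma Dg_cons {x : Sn n} (hx : x ∈ linS (n + 2) ^ b) {P : Fin m → Sn n} (hP : Dg b P) :
    Dg b (Fin.cons x P : Fin (m + 1) → Sn n) := by
  intro i
  refine Fin.cases ?_ (fun j => ?_) i
  · simpa using hx
  · simpa using hP j

lemma inv_fix (hk : k ≤ b) (R : Fam n h (m + 1)) (hI : InvR b d R) (hT : TopR b k d R)
    {v : Sn n} (hv : v ∈ ZZ n ^ k) {A : Sn n} (hA : A ∈ U2 n ^ (b - k)) :
    InvR b d (fixR (v * A) R) := by
  intro z hz w hw B hB P hP
  rw [fixR_apply, fixR_apply]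
  have h1 := hI z hz w hw B hB (Fin.cons (v * A) P) (Dg_cons (wA_mem hk hv hA) hP)
  rw [cons_shr] at h1
  rw [MultilinearMap.curryLeft_apply, MultilinearMap.curryLeft_apply, ← h1]
  obtain ⟨C, hC, hC'⟩ := shr_expand hz hw (b - k) A hA
  have h2 : shr n z w (v * A) = v * A + ∑ j ∈ Finset.range (b - k), v * C j := by
    rw [map_mul, shr_ZZ_pow hv, hC', mul_add, Finset.mul_sum]
  set G := R (fun i => shr n z w (B i)) with hG
  have h3 : G (Fin.cons (shr n z w (v * A)) (fun i => shr n z w (P i))) =
      G.curryLeft (shr n z w (v * A)) (fun i => shr n z w (P i)) := rfl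
  have h4 : ∀ j ∈ Finset.range (b - k), G.curryLeft (v * C j) (fun i => shr n z w (P i)) = 0 := by
    intro j hj
    rw [Finset.mem_range] at hj
    have h5 := hC j hj
    generalize C j = y at h5 ⊢
    induction h5 using Submodule.mul_induction_on' with
    | mem_mul_mem x hx y hy =>
      rw [← mul_assoc]
      refine hT (k + (j + 1)) (by omega) (by omega) (v * x) ?_ y ?_ _ (DgV_shr hz hw hB) _
        (Dg_shr hz hw hP)
      · rw [pow_add]
        exact Submodule.mul_mem_mul hv hx
      · have h6 : b - (k + (j + 1)) = b - k - (j + 1) := by omega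
        rw [h6]
        exact hy
    | add x _ y _ hx hy =>
      rw [mul_add, map_add, _root_.add_apply, hx, hy, add_zero]
  rw [h3, h2, map_add, _root_.add_apply, map_sum, _root_.sum_apply,
    Finset.sum_eq_zero h4, add_zero]
  rfl

lemma hom_fix (hk : k ≤ b) (hkτ : k ≤ τ) (R : Fam n h (m + 1)) (hH : HomR b d τ R)
    {v : Sn n} (hv : v ∈ ZZ n ^ k) {A : Sn n} (hA : A ∈ U2 n ^ (b - k)) :
    HomR b d (τ - k) (fixR (v * A) R) := by
  intro c hc B hB P hP
  rw [fixR_apply, fixR_apply]
  have h1 := hH c hc B hB (Fin.cons (v * A) P) (Dg_cons (wA_mem hk hv hA) hP)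
  rw [cons_scal, map_mul, scal_ZZ_pow hv, scal_U2 c hA, smul_mul_assoc] at h1
  set G := R (fun i => scal n c (B i)) with hG
  have h3 : G (Fin.cons (c ^ k • (v * A)) (fun i => scal n c (P i))) =
      G.curryLeft (c ^ k • (v * A)) (fun i => scal n c (P i)) := rfl
  rw [h3, map_smul, _root_.smul_apply, smul_eq_mul] at h1
  have hck : c ^ k ≠ 0 := pow_ne_zero _ hc
  apply mul_left_cancel₀ hck
  rw [h1, ← mul_assoc, ← pow_add, Nat.add_sub_cancel' hkτ]
  rfl

lemma inv_heavy (hk : k ≤ b) (R : Fam n h (m + 1)) (hI : InvR b d R)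
    {v : Sn n} (hv : v ∈ ZZ n ^ k) : InvR b (Fin.cons (b - k) d) (heavyR v R) := by
  intro z hz w hw B hB P hP
  rw [heavyR_apply, heavyR_apply]
  have hB0 : B 0 ∈ linS (n + 2) ^ (b - k) := hB 0
  have hBs : DgV d (fun i => B i.succ) := fun i => hB i.succ
  have hm : v * B 0 ∈ linS (n + 2) ^ b := by
    have h1 : linS (n + 2) ^ b = linS (n + 2) ^ k * linS (n + 2) ^ (b - k) := by
      rw [← pow_add]; congr 1; omega
    rw [h1]
    exact Submodule.mul_mem_mul (pow_le_pow_left' ZZ_le _ hv) hB0
  have h1 := hI z hz w hw (fun i => B i.succ) hBs (Fin.cons (v * B 0) P) (Dg_cons hm hP)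
  rw [cons_shr, map_mul, shr_ZZ_pow hv] at h1
  rw [MultilinearMap.curryLeft_apply, MultilinearMap.curryLeft_apply, ← h1]

lemma hom_heavy (hk : k ≤ b) (hkτ : k ≤ τ) (R : Fam n h (m + 1)) (hH : HomR b d τ R)
    {v : Sn n} (hv : v ∈ ZZ n ^ k) : HomR b (Fin.cons (b - k) d) (τ - k) (heavyR v R) := by
  intro c hc B hB P hP
  rw [heavyR_apply, heavyR_apply]
  have hB0 : B 0 ∈ linS (n + 2) ^ (b - k) := hB 0
  have hBs : DgV d (fun i => B i.succ) := fun i => hB i.succ
  have hm : v * B 0 ∈ linS (n + 2) ^ b := by
    have h1 : linS (n + 2) ^ b = linS (n + 2) ^ k * linS (n + 2) ^ (b - k) := by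
      rw [← pow_add]; congr 1; omega
    rw [h1]
    exact Submodule.mul_mem_mul (pow_le_pow_left' ZZ_le _ hv) hB0
  have h1 := hH c hc (fun i => B i.succ) hBs (Fin.cons (v * B 0) P) (Dg_cons hm hP)
  rw [cons_scal, map_mul, scal_ZZ_pow hv, smul_mul_assoc] at h1
  set G := R (fun i => scal n c (B i.succ)) with hG
  have h3 : G (Fin.cons (c ^ k • (v * scal n c (B 0))) (fun i => scal n c (P i))) =
      G.curryLeft (c ^ k • (v * scal n c (B 0))) (fun i => scal n c (P i)) := rfl
  rw [h3, map_smul, _root_.smul_apply, smul_eq_mul] at h1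
  have hck : c ^ k ≠ 0 := pow_ne_zero _ hc
  apply mul_left_cancel₀ hck
  rw [h1, ← mul_assoc, ← pow_add, Nat.add_sub_cancel' hkτ]
  rfl

end Light

/-- **The core.** -/
theorem core {n b : ℕ}
    (third : ∀ {h τ : ℕ} (d : Fin h → ℕ) (F : Fm n h),
      (∀ z ∈ ZZ n, ∀ w ∈ ZZ n, ∀ P : Fin h → Sn n, (∀ i, P i ∈ linS (n + 2) ^ d i) →
        F (fun i => shr n z w (P i)) = F P) →
      (∀ c : ℂ, c ≠ 0 → ∀ P : Fin h → Sn n, (∀ i, P i ∈ linS (n + 2) ^ d i) →
        F (fun i => scal n c (P i)) = c ^ τ * F P) →
      n * ∑ i, d i < (n + 2) * τ → ∀ P : Fin h → Sn n, (∀ i, P i ∈ linS (n + 2) ^ d i) → F P = 0)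
    (lemmaV : ∀ {a : ℕ}, 1 ≤ b → a ≤ b → ∀ F : Fm n a, QQ 0 b F → Van b F) :
    ∀ (m h : ℕ) (d : Fin h → ℕ) (s τ : ℕ) (R : Fam n h m), 1 ≤ s → 2 * m ≤ b →
      InvR b d R → HomR b d τ R → (∀ B : Fin h → Sn n, DgV d B → QQ s b (R B)) →
      2 * (n * (∑ i, d i + (s - 1) * b)) + (n + 2) * (m * (m + 1)) < 2 * ((n + 2) * τ) →
      ∀ B : Fin h → Sn n, DgV d B → Van b (R B) := by
  intro m
  induction m with
  | zero =>
    intro h d s τ R hs hb hI hH hQ hlt B hB P hP
    let ev : Fm n 0 →ₗ[ℂ] ℂ :=
      { toFun := fun F => F (fun i => i.elim0)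
        map_add' := fun _ _ => rfl
        map_smul' := fun _ _ => rfl }
    have h1 := third (τ := τ) d (ev.compMultilinearMap R) ?_ ?_ ?_ B hB
    · have h2 : P = fun i => i.elim0 := Subsingleton.elim _ _
      rw [h2]
      exact h1
    · intro z hz w hw C hC
      have h2 := hI z hz w hw C hC (fun i => i.elim0) (fun i => i.elim0)
      have h3 : (fun i : Fin 0 => shr n z w ((fun i => i.elim0 : Fin 0 → Sn n) i)) =
          fun i => i.elim0 := Subsingleton.elim _ _
      rw [h3] at h2
      exact h2
    · intro c hc C hC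
      have h2 := hH c hc C hC (fun i => i.elim0) (fun i => i.elim0)
      have h3 : (fun i : Fin 0 => scal n c ((fun i => i.elim0 : Fin 0 → Sn n) i)) =
          fun i => i.elim0 := Subsingleton.elim _ _
      rw [h3] at h2
      exact h2
    · have h4 : n * ∑ i, d i ≤ n * (∑ i, d i + (s - 1) * b) :=
        Nat.mul_le_mul_left _ (Nat.le_add_right _ _)
      omega
  | succ m ih =>
    intro h d s τ R hs hb hI hH hQ hlt
    have hmτ : m + 1 ≤ τ := by
      by_contra hcon
      rw [not_le] at hcon
      have h1 : (n + 2) * (2 * τ) ≤ (n + 2) * ((m + 1) * (m + 1 + 1)) := by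
        apply Nat.mul_le_mul_left
        nlinarith
      have h2 : 2 * ((n + 2) * τ) = (n + 2) * (2 * τ) := by ring
      omega
    -- the heavy case
    have hheavy : ∀ v ∈ ZZ n ^ (m + 1), ∀ C ∈ linS (n + 2) ^ (b - (m + 1)),
        ∀ B : Fin h → Sn n, DgV d B → Van b ((R B).curryLeft (v * C)) := by
      intro v hv C hC B hB
      have hQ' : ∀ B' : Fin (h + 1) → Sn n, DgV (Fin.cons (b - (m + 1)) d) B' →
          QQ (s - 1) b (heavyR v R B') := by
        intro B' hB'
        rw [heavyR_apply]
        have hB0 : B' 0 ∈ linS (n + 2) ^ (b - (m + 1)) := hB' 0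
        have hBs : DgV d (fun i => B' i.succ) := fun i => hB' i.succ
        exact heavy_full (by omega) hs (by omega) le_rfl _ (hQ _ hBs) hv hB0
      have hB' : DgV (Fin.cons (b - (m + 1)) d) (Fin.cons C B : Fin (h + 1) → Sn n) := by
        intro i
        refine Fin.cases ?_ (fun j => ?_) i
        · simpa using hC
        · simpa using hB j
      have hgoal : Van b (heavyR v R (Fin.cons C B)) := by
        rcases Nat.lt_or_ge s 2 with hs2 | hs2
        · have hs1 : s - 1 = 0 := by omega
          have h5 := hQ' _ hB'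
          rw [hs1] at h5
          exact lemmaV (by omega) (by omega) _ h5
        · refine ih (h + 1) (Fin.cons (b - (m + 1)) d) (s - 1) (τ - (m + 1)) (heavyR v R)
            (by omega) (by omega) (inv_heavy (by omega) R hI hv) (hom_heavy (by omega) hmτ R hH hv)
            hQ' ?_ _ hB'
          rw [Fin.sum_univ_succ]
          simp only [Fin.cons_zero, Fin.cons_succ]
          obtain ⟨τ', rfl⟩ : ∃ τ', τ = τ' + (m + 1) := ⟨τ - (m + 1), by omega⟩
          obtain ⟨s', rfl⟩ : ∃ s', s = s' + 2 := ⟨s - 2, by omega⟩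
          obtain ⟨b', rfl⟩ : ∃ b', b = b' + (m + 1) := ⟨b - (m + 1), by omega⟩
          simp only [Nat.add_sub_cancel]
          have e1 : s' + 2 - 1 = s' + 1 := rfl
          rw [e1] at hlt ⊢
          have e2 : s' + 1 - 1 = s' := rfl
          rw [e2]
          have h6 : 2 * (n * (∑ i, d i + (s' + 1) * (b' + (m + 1)))) =
              2 * (n * (b' + ∑ i, d i + s' * (b' + (m + 1)))) + 2 * (n * (m + 1)) := by ring
          have h7 : (n + 2) * ((m + 1) * (m + 1 + 1)) =
              (n + 2) * (m * (m + 1)) + 2 * ((n + 2) * (m + 1)) := by ring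
          have h8 : 2 * ((n + 2) * (τ' + (m + 1))) =
              2 * ((n + 2) * τ') + 2 * ((n + 2) * (m + 1)) := by ring
          omega
      have h9 : heavyR v R (Fin.cons C B) = (R B).curryLeft (v * C) := by
        rw [heavyR_apply, Fin.cons_zero]
        rfl
      rw [h9] at hgoal
      exact hgoal
    -- descent on the exponent
    have hmain : ∀ N k, k ≤ b → b - k ≤ N → ∀ v ∈ ZZ n ^ k, ∀ A ∈ U2 n ^ (b - k),
        ∀ B : Fin h → Sn n, DgV d B → Van b ((R B).curryLeft (v * A)) := by
      intro N
      induction N with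
      | zero =>
        intro k hk hN v hv A hA B hB
        have hkb : k = b := by omega
        subst hkb
        have h1 : k = (m + 1) + (k - (m + 1)) := by omega
        rw [h1, pow_add] at hv
        induction hv using Submodule.mul_induction_on' with
        | mem_mul_mem x hx y hy =>
          rw [mul_assoc]
          apply hheavy x hx _ _ B hB
          have h2 : linS (n + 2) ^ (k - (m + 1)) =
              linS (n + 2) ^ (k - (m + 1)) * linS (n + 2) ^ (k - k) := by
            rw [← pow_add]; congr 1; omega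
          rw [h2]
          exact Submodule.mul_mem_mul (pow_le_pow_left' ZZ_le _ hy)
            (pow_le_pow_left' U2_le _ hA)
        | add x _ y _ hx hy =>
          intro P hP
          rw [add_mul, map_add, _root_.add_apply, hx P hP, hy P hP, add_zero]
      | succ N ihN =>
        intro k hk hN v hv A hA
        have hT : TopR b k d R := by
          intro j hj hjb w hw A' hA' B hB
          exact ihN j hjb (by omega) w hw A' hA' B hB
        rcases Nat.lt_or_ge m k with hkm | hkm
        · intro B hB
          have h1 : k = (m + 1) + (k - (m + 1)) := by omega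
          rw [h1, pow_add] at hv
          clear hT
          induction hv using Submodule.mul_induction_on' with
          | mem_mul_mem x hx y hy =>
            rw [mul_assoc]
            apply hheavy x hx _ _ B hB
            have h2 : linS (n + 2) ^ (b - (m + 1)) =
                linS (n + 2) ^ (k - (m + 1)) * linS (n + 2) ^ (b - k) := by
              rw [← pow_add]; congr 1; omega
            rw [h2]
            exact Submodule.mul_mem_mul (pow_le_pow_left' ZZ_le _ hy)
              (pow_le_pow_left' U2_le _ hA)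
          | add x _ y _ hx hy =>
            intro P hP
            rw [add_mul, map_add, _root_.add_apply, hx P hP, hy P hP, add_zero]
        · -- light
          have hQ' : ∀ B : Fin h → Sn n, DgV d B → QQ s b (fixR (v * A) R B) := by
            intro B hB
            rw [fixR_apply]
            refine light hs (by omega) (by omega) (R B) (hQ B hB) ?_ hv hA
            intro j hj hjb w hw A' hA'
            exact hT j hj hjb w hw A' hA' B hB
          refine ih h d s (τ - k) (fixR (v * A) R) hs (by omega) (inv_fix hk R hI hT hv hA)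
            (hom_fix hk (by omega) R hH hv hA) hQ' ?_
          obtain ⟨τ', rfl⟩ : ∃ τ', τ = τ' + k := ⟨τ - k, by omega⟩
          simp only [Nat.add_sub_cancel]
          have h7 : (n + 2) * ((m + 1) * (m + 1 + 1)) =
              (n + 2) * (m * (m + 1)) + 2 * ((n + 2) * (m + 1)) := by ring
          have h8 : 2 * ((n + 2) * (τ' + k)) = 2 * ((n + 2) * τ') + 2 * ((n + 2) * k) := by ring
          have h9 : (n + 2) * k ≤ (n + 2) * (m + 1) := Nat.mul_le_mul_left _ (by omega)
          omega
    intro B hB P hP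
    let W : Submodule ℂ (Sn n) :=
      LinearMap.ker ({ toFun := fun u => (R B).curryLeft u (fun i => P i.succ)
                       map_add' := fun x y => by rw [map_add]; rfl
                       map_smul' := fun c x => by rw [map_smul]; rfl } : Sn n →ₗ[ℂ] ℂ)
    have h2 : linS (n + 2) ^ b ≤ W := by
      apply linS_pow_le
      intro k hk w hw A hA
      exact hmain b k hk (by omega) w hw A hA B hB (fun i => P i.succ) (fun i => hP i.succ)
    have h3 : (R B).curryLeft (P 0) (fun i => P i.succ) = 0 := h2 (hP 0)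
    rw [MultilinearMap.curryLeft_apply] at h3
    rw [← h3]
    congr 1
    funext i
    refine Fin.cases ?_ (fun i => ?_) i
    · rfl
    · rfl

end Vale.Agent.P181.TM
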