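import Vale.Agent.P181.R2.H151.Step
import Vale.Agent.P181.R2.H240.Bridge2
import Vale.Agent.P181.R2.H280.NFinal
import Vale.Agent.P181.R2.H280.Third
import Vale.Agent.P181.R2.H424.Rec74
import Vale.Agent.P181.R2.H940.LemmaV
import Vale.Agent.P181.R2.H999.MTStep

/-!
P181: three rows below the square, and the cubic bound for the third row.
-/

set_option autoImplicit false

open MvPolynomial

namespace Vale.Agent.P181.TM

open Vale.Agent.P181 Vale.Agent.P181.H536 Vale.Agent.P181.H280 Vale.Agent.P181.TN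

/-- Forms with `QQ s`, invariant under all shears, vanish in large weight. -/
theorem LS {n a b s t : ℕ} (hs : 1 ≤ s)
    (hb : 2 * a ≤ b) (F : Fm n a) (hI : Inv2 b F) (hH : Hom b t F) (hQ : QQ s b F)
    (h : 2 * (n * ((s - 1) * b)) + (n + 2) * (a * (a + 1)) < 2 * ((n + 2) * t)) : Van b F :=
  LS_of (fun {_ _} d F h1 h2 h3 => third d F h1 h2 h3)
    (fun {_ _} h1 h2 F h3 => lemmaV h1 h2 F h3) hs hb F hI hH hQ h

/-- **The step in the degree.** -/
theorem KK2_step {n a b s t : ℕ} (hs : 1 ≤ s) (hb : 2 * a ≤ b + 1)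
    (hK : ∀ t', t' + s ≤ t → KK2 n a b t')
    (h : 2 * (n * ((s - 1) * (b + 1))) + (n + 2) * (a * (a + 1)) < 2 * ((n + 2) * t)) :
    KK2 n a (b + 1) t :=
  KK2_step_of (fun {_ _} d F h1 h2 h3 => third d F h1 h2 h3)
    (fun {_ _} h1 h2 F h3 => lemmaV h1 h2 F h3)
    (fun {_ _ _ _} h1 h2 F h3 h4 h5 h6 => tstep2 h1 h2 F h3 h4 h5 h6) hs hb hK h

/-- The two inputs of the recursion, for three rows. -/
theorem inp (a : ℕ) (ha : 2 ≤ a) : R2.H424.Rec74.Inp a (fun b t => KK2 1 a b t) where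
  base := by
    intro b t s hs h
    apply KK2_of_KK
    refine KK_all (N := a - 1) (by omega) (by omega) ⟨s, hs, ?_⟩
    have h1 : 2 * (s + 1).choose (1 + 1) = s * (s + 1) := by
      rw [Nat.choose_two_right, Nat.add_sub_cancel, Nat.mul_div_cancel']
      · ring
      · rw [mul_comm]
        exact (Nat.even_mul_succ_self s).two_dvd
    rw [h1]
    exact h
  step := by
    intro b t s hs hb hK h
    refine KK2_step hs hb hK ?_
    omega

/-- Beyond the last possible weight. -/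
theorem KK2_large {a b t : ℕ} (h : a * b < 3 * t) : KK2 1 a b t := by
  intro F _ hI hH _ P hP
  refine third (τ := t) (fun _ => b) F (fun z hz w hw P hP => hI z hz w hw P hP)
    (fun c hc P hP => hH c hc P hP) ?_ P hP
  rw [Finset.sum_const, Finset.card_univ, Fintype.card_fin, smul_eq_mul]
  omega

/-- **Three rows, all weights.** -/
theorem KK2_three {a b : ℕ} (ha : 2 ≤ a) (hab : 29 * a ^ 7 ≤ b ^ 4) (t : ℕ) : KK2 1 a b t := by
  rcases Nat.lt_or_ge (a * b) (3 * t) with h3 | h3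
  · exact KK2_large h3
  · exact R2.H424.Rec74.rec74' ha (inp a ha) hab h3

/-- **Three rows, the cubic bound.** -/
theorem KK2_cubic {a b t m x : ℕ} (ha : 2 ≤ a) (hm : a < 2 * m ^ 2)
    (hx : x = (a - 1) * (2 * m + 1)) (hb : x ≤ b)
    (h : 2 * t * (x * (x - 1) * (x - 2)) <
      (a - 1) * (2 * m ^ 2 - a) * (b * (b - 1) * (b - 2)) +
        a * (a + 1) * (x * (x - 1) * (x - 2))) : KK2 1 a b t := by
  obtain ⟨n, rfl⟩ : ∃ n, a = n + 1 := ⟨a - 1, by omega⟩
  have hm1 : 1 ≤ m := by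
    rcases Nat.eq_zero_or_pos m with h0 | h0
    · rw [h0] at hm; omega
    · exact h0
  rw [Nat.add_sub_cancel] at hx h
  have h3 : 3 ≤ x := by rw [hx]; nlinarith
  obtain ⟨c0, hc0⟩ : ∃ c0, c0 + 2 = n * (2 * m + 1) := ⟨x - 2, by omega⟩
  obtain ⟨c, rfl⟩ : ∃ c, b = c + 2 := ⟨b - 2, by omega⟩
  obtain ⟨T, y, hT0, hy, hT, hI⟩ := R2.H424.Rec74.good_all (inp (n + 1) ha) hm1 hm (by omega)
    hc0 (c := c) (by omega)
  refine hT t ?_
  by_contra hcon
  have hx' : x = c0 + 2 := by rw [hc0, hx]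
  subst hx'
  have e1 : c0 + 2 - 1 = c0 + 1 := rfl
  have e2 : c + 2 - 1 = c + 1 := rfl
  rw [e1, e2, Nat.add_sub_cancel, Nat.add_sub_cancel] at h
  set D := (c0 + 2) * (c0 + 1) * c0 with hD
  have h1 : 2 * y + (n + 1) * (n + 2) ≤ 2 * t := by omega
  have h2 : (2 * y + (n + 1) * (n + 2)) * D ≤ 2 * t * D := Nat.mul_le_mul_right _ h1
  have h4 : (2 * y + (n + 1) * (n + 2)) * D = 2 * y * D + (n + 1) * (n + 2) * D := by ring
  have h5 : (n + 1) * (n + 1 + 1) * D = (n + 1) * (n + 2) * D := rfl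
  omega

end Vale.Agent.P181.TM
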