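import Vale.Agent.P181.R2.H151.Glue2
import Vale.Agent.P181.R2.H424.RecW

/-!
P181: three rows below the square, second form.
-/

set_option autoImplicit false

open MvPolynomial

namespace Vale.Agent.P181.TM

open Vale.Agent.P181 Vale.Agent.P181.H536 Vale.Agent.P181.H280 Vale.Agent.P181.TN
open Vale.Agent.P181.R2.H424.RecW

/-- The rules of the recursion. -/
theorem inpW {A : ℕ} (hA : 2 ≤ A) : Inp A (fun a b t => KK2 1 a b t) where
  zero := H151.zero2
  tree := fun _ _ _ ha h => H151.tree2 ha hA h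
  stepW := by
    intro a b t s e hs hb _ hae hnum hK hprev
    refine H151.stepW (by omega) hs hae hnum hK ?_
    rw [Nat.add_sub_cancel]
    exact hprev
  stepJ := by
    intro a b t s hs ha _ hab h0 h1 hK hprev
    refine H151.stepJ ha hs hab h0 h1 hK ?_
    rw [Nat.add_sub_cancel]
    exact hprev
  dom := fun _ _ _ h => KK2_large h

/-- **Three rows, all weights.** -/
theorem KK2_three' {a b : ℕ} (ha : 131 ≤ a) (hab : 9 * a ^ 7 ≤ b ^ 4) (t : ℕ) : KK2 1 a b t :=
  full ha (inpW (by omega)) hab t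

/-- **Three rows, the quadratic and the cubic bound.** -/
theorem KK2_cubic' {a b t m c T : ℕ} (ha : 3 ≤ a) (hm : 1 ≤ m) (hcb : c ≤ b)
    (hT : 4 * T + (3 * (m * (m + 1)) - 2) * a ≤ 4 * (m * c))
    (h : t ≤ T ∨ (a * (a - 1) ≤ 2 * T ∧ 2 * a ≤ c ∧
      2 * (a * (a - 1)) * (c + 2 * a - 2) < (6 * (T + 1) - a * (a - 1)) * (c + 4 - a) ∧
      6 * t * ((c + 2 * a) * (c + 2 * a - 1) * (c + 2 * a - 2)) <
        (6 * (T + 1) - a * (a - 1)) * ((b + 2 * a) * (b + 2 * a - 1) * (b + 2 * a - 2)) +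
          a * (a - 1) * ((c + 2 * a) * (c + 2 * a - 1) * (c + 2 * a - 2)))) : KK2 1 a b t := by
  rcases h with h | ⟨h1, h2, h3, h4⟩
  · refine stageW ha (inpW (by omega)) m hm b a t le_rfl ?_
    have h5 : m * c ≤ m * b := Nat.mul_le_mul_left _ hcb
    omega
  · exact tail ha (inpW (by omega)) hm hT h1 h2 h3 hcb h4

end Vale.Agent.P181.TM
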