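import Vale.Agent.P181.R2.H151.JCore
import Vale.Agent.P181.R2.H999.MTStep

/-!
P181: the improved step in the degree, from J1 and J2.
-/

set_option autoImplicit false

open MvPolynomial

namespace Vale.Agent.P181.TM.H151

open Vale.Agent.P181 Vale.Agent.P181.H536 Vale.Agent.P181.H280 Vale.Agent.P181.TN

/-- **`stepJ`.** -/
theorem stepJ_of (third : Third 1) (lemmaV : LemV 1) (joint : Joint) (zeroK : ZeroK)
    {a b s t : ℕ} (ha : 1 ≤ a) (hs : 1 ≤ s) (hb : 2 * a ≤ b)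
    (h0 : a * (a - 1) + 2 * ((s - 1) * (a - 1)) < 2 * t)
    (h1 : 2 * ((s - 1) * (b + 2 * a)) + a * (a - 1) < 6 * t)
    (hKK : ∀ a', a' < a → ∀ t', t' ≤ t → KK2 1 a' b t')
    (hprev : ∀ t', t' + s ≤ t → KK2 1 a (b - 1) t') : KK2 1 a b t := by
  obtain ⟨b, rfl⟩ : ∃ b', b = b' + 1 := ⟨b - 1, by omega⟩
  rw [Nat.add_sub_cancel] at hprev
  intro F hsy hI hH hF
  exact LJ_of third lemmaV joint zeroK ha hs hb hKK h0 h1 F hsy hI hH
    (tstep2 hs hprev F hsy hI hH hF)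

end Vale.Agent.P181.TM.H151
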