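import Vale.Agent.P181.R2.H151.Final
import Vale.Agent.P181.R2.H151.JStep
import Vale.Agent.P181.R2.H280.Joint
import Vale.Agent.P181.R2.H866.W4
import Vale.Agent.P181.R2.H940.ZeroK

/-!
P181: the rules of the second recursion for three rows.
-/

set_option autoImplicit false

open MvPolynomial

namespace Vale.Agent.P181.TM.H151

open Vale.Agent.P181 Vale.Agent.P181.H536 Vale.Agent.P181.H280 Vale.Agent.P181.TN

/-- The step in the degree, with the heavy slots of weight `a`. -/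
theorem stepJ {a b s t : ℕ} (ha : 1 ≤ a) (hs : 1 ≤ s) (hb : 2 * a ≤ b)
    (h0 : a * (a - 1) + 2 * ((s - 1) * (a - 1)) < 2 * t)
    (h1 : 2 * ((s - 1) * (b + 2 * a)) + a * (a - 1) < 6 * t)
    (hKK : ∀ a', a' < a → ∀ t', t' ≤ t → KK2 1 a' b t')
    (hprev : ∀ t', t' + s ≤ t → KK2 1 a (b - 1) t') : KK2 1 a b t :=
  stepJ_of (fun {_ _} d F h1 h2 h3 => third d F h1 h2 h3)
    (fun {_ _} h1 h2 F h3 => lemmaV h1 h2 F h3)
    (fun {_ _ _ _ _} h1 h2 d R h3 h4 h5 h6 => joint h1 h2 d R h3 h4 h5 h6)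
    (fun {_ _ _ _} d R h1 h2 h3 h4 h5 => zero_of_isK d R h1 h2 h3 h4 h5)
    ha hs hb h0 h1 hKK hprev

/-- The step in the number of slots. -/
theorem stepW {a b t s e : ℕ} (hb : 2 ≤ b) (hs : 1 ≤ s) (hae : a ≤ e + 2)
    (hnum : (b - 2) * (s - 1) + e + 4 < 2 * t) (hKK : ∀ t', t' ≤ t → KK2 1 a b t')
    (hprev : ∀ t', t' + s ≤ t → KK2 1 (a + 1) (b - 1) t') : KK2 1 (a + 1) b t := by
  obtain ⟨b, rfl⟩ : ∃ b', b = b' + 1 := ⟨b - 1, by omega⟩
  rw [Nat.add_sub_cancel] at hprev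
  intro F hsy hI hH hF
  exact LW hb hs hae hnum hKK F hsy hI hH hF (tstep2 hs hprev F hsy hI hH hF)

/-- The first degrees. -/
theorem tree2 {A a b t : ℕ} (ha : a ≤ A) (hA : 2 ≤ A) (h : t + (A - 1) ≤ b) : KK2 1 a b t :=
  KK2_of_KK (tree (N := A - 1) (by omega) h (by omega))

/-- No slot. -/
theorem zero2 (b t : ℕ) : KK2 1 0 b t :=
  KK2_of_KK (zeroN 1 b t)

end Vale.Agent.P181.TM.H151
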