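import Vale.Agent.P181.R2.H151.Step

/-!
P181: light slots, and the improved vanishing of the forms with `QQ s` (rows J3 and J4).
-/

set_option autoImplicit false

open MvPolynomial

namespace Vale.Agent.P181.TM.H151

open Vale.Agent.P181 Vale.Agent.P181.H536 Vale.Agent.P181.H280 Vale.Agent.P181.TN

/-- Peeling the first slot: it is enough to treat `v * A` at the top exponent. -/
lemma peel {n b h m : ℕ} {d : Fin h → ℕ} (R : Fam n h (m + 1))
    (hstep : ∀ k, k ≤ b → TopR b k d R → ∀ v ∈ ZZ n ^ k, ∀ A ∈ U2 n ^ (b - k),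
      ∀ B : Fin h → Sn n, DgV d B → Van b ((R B).curryLeft (v * A))) :
    ∀ B : Fin h → Sn n, DgV d B → Van b (R B) := by
  have hmain : ∀ N k, k ≤ b → b - k ≤ N → ∀ v ∈ ZZ n ^ k, ∀ A ∈ U2 n ^ (b - k),
      ∀ B : Fin h → Sn n, DgV d B → Van b ((R B).curryLeft (v * A)) := by
    intro N
    induction N with
    | zero =>
      intro k hk hN
      apply hstep k hk
      intro j hj hjb
      omega
    | succ N ihN =>
      intro k hk hN
      apply hstep k hk
      intro j hj hjb w hw A' hA' B hB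
      exact ihN j hjb (by omega) w hw A' hA' B hB
  intro B hB P hP
  let W : Submodule ℂ (Sn n) :=
    LinearMap.ker ({ toFun := fun u => (R B).curryLeft u (fun i => P i.succ)
                     map_add' := fun x y => by rw [map_add]; rfl
                     map_smul' := fun c x => by rw [map_smul]; rfl } : Sn n →ₗ[ℂ] ℂ)
  have h2 : linS (n + 2) ^ b ≤ W := by
    apply linS_pow_le
    intro k hk w hw A hA
    exact hmain b k hk (by omega) w hw A hA B hB (fun i => P i.succ) (fun i => hP i.succ)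
  have h3 : (R B).curryLeft (P 0) (fun i => P i.succ) = 0 := h2 (hP 0)
  rw [MultilinearMap.curryLeft_apply] at h3
  rw [← h3]
  congr 1
  funext i
  refine Fin.cases ?_ (fun i => ?_) i
  · rfl
  · rfl

/-- All slots vanish at exponent `c + 1` in the last variables. -/
def Kill (b c : ℕ) {n h m : ℕ} (d : Fin h → ℕ) (R : Fam n h m) : Prop :=
  ∀ B : Fin h → Sn n, DgV d B → ∀ P : Fin m → Sn n, Dg b P →
    ∀ i, ∀ w ∈ ZZ n ^ (c + 1), ∀ Q ∈ linS (n + 2) ^ (b - (c + 1)), P i = w * Q → R B P = 0

lemma Kill.zero {n b c h m k : ℕ} {d : Fin h → ℕ} {R : Fam n h (m + 1)} (hk : Kill b c d R)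
    (hck : c + 1 ≤ k) (hkb : k ≤ b) {v : Sn n} (hv : v ∈ ZZ n ^ k) {A : Sn n}
    (hA : A ∈ U2 n ^ (b - k)) {B : Fin h → Sn n} (hB : DgV d B) :
    Van b ((R B).curryLeft (v * A)) := by
  have h1 : k = (c + 1) + (k - (c + 1)) := by omega
  rw [h1, pow_add] at hv
  induction hv using Submodule.mul_induction_on' with
  | mem_mul_mem x hx y hy =>
    intro P hP
    rw [mul_assoc, MultilinearMap.curryLeft_apply]
    have h2 : y * A ∈ linS (n + 2) ^ (b - (c + 1)) := by
      have h3 : linS (n + 2) ^ (b - (c + 1)) =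
          linS (n + 2) ^ (k - (c + 1)) * linS (n + 2) ^ (b - k) := by
        rw [← pow_add]; congr 1; omega
      rw [h3]
      exact Submodule.mul_mem_mul (pow_le_pow_left' ZZ_le _ hy) (pow_le_pow_left' U2_le _ hA)
    refine hk B hB _ ?_ 0 x hx (y * A) h2 (by rw [Fin.cons_zero])
    apply Dg_cons _ hP
    have h4 : linS (n + 2) ^ b = linS (n + 2) ^ (c + 1) * linS (n + 2) ^ (b - (c + 1)) := by
      rw [← pow_add]; congr 1; omega
    rw [h4]
    exact Submodule.mul_mem_mul (pow_le_pow_left' ZZ_le _ hx) h2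
  | add x _ y _ hx hy =>
    intro P hP
    rw [add_mul, map_add, _root_.add_apply, hx P hP, hy P hP, add_zero]

lemma Kill.fix {n b c h m k : ℕ} {d : Fin h → ℕ} {R : Fam n h (m + 1)} (hk : Kill b c d R)
    (hkb : k ≤ b) {v : Sn n} (hv : v ∈ ZZ n ^ k) {A : Sn n} (hA : A ∈ U2 n ^ (b - k)) :
    Kill b c d (fixR (v * A) R) := by
  intro B hB P hP i w hw Q hQ hPi
  rw [fixR_apply, MultilinearMap.curryLeft_apply]
  refine hk B hB _ (Dg_cons (wA_mem hkb hv hA) hP) i.succ w hw Q hQ ?_
  rw [Fin.cons_succ]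
  exact hPi

/-- No slot left. -/
lemma van_zero {n b h τ : ℕ} (third : Third n) {d : Fin h → ℕ} (R : Fam n h 0)
    (hI : InvR b d R) (hH : HomR b d τ R) (hlt : n * ∑ i, d i < (n + 2) * τ) :
    ∀ B : Fin h → Sn n, DgV d B → Van b (R B) := by
  intro B hB P hP
  let ev : Fm n 0 →ₗ[ℂ] ℂ :=
    { toFun := fun F => F (fun i => i.elim0)
      map_add' := fun _ _ => rfl
      map_smul' := fun _ _ => rfl }
  have h1 := third (τ := τ) d (ev.compMultilinearMap R) ?_ ?_ hlt B hB
  · have h2 : P = fun i => i.elim0 := Subsingleton.elim _ _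
    rw [h2]
    exact h1
  · intro z hz w hw C hC
    have h2 := hI z hz w hw C hC (fun i => i.elim0) (fun i => i.elim0)
    have h3 : (fun i : Fin 0 => shr n z w ((fun i => i.elim0 : Fin 0 → Sn n) i)) =
        fun i => i.elim0 := Subsingleton.elim _ _
    rw [h3] at h2
    exact h2
  · intro c hc C hC
    have h2 := hH c hc C hC (fun i => i.elim0) (fun i => i.elim0)
    have h3 : (fun i : Fin 0 => scal n c ((fun i => i.elim0 : Fin 0 → Sn n) i)) =
        fun i => i.elim0 := Subsingleton.elim _ _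
    rw [h3] at h2
    exact h2

/-- **J3.** -/
theorem light_core {n b c : ℕ} (third : Third n) (lemmaV : LemV n) :
    ∀ (m h : ℕ) (d : Fin h → ℕ) (s τ : ℕ) (R : Fam n h m), 1 ≤ s → 2 * m ≤ b →
      InvR b d R → HomR b d τ R → (∀ B : Fin h → Sn n, DgV d B → QQ s b (R B)) →
      Kill b c d R →
      2 * (n * ∑ i, d i) + (n + 2) * (m * (m - 1) + 2 * ((s - 1) * c)) < 2 * ((n + 2) * τ) →
      ∀ B : Fin h → Sn n, DgV d B → Van b (R B) := by
  intro m
  induction m with
  | zero =>
    intro h d s τ R hs hb hI hH hQ _ hlt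
    refine van_zero third R hI hH ?_
    have h4 : 2 * (n * ∑ i, d i) < 2 * ((n + 2) * τ) :=
      lt_of_le_of_lt (Nat.le_add_right _ _) hlt
    omega
  | succ m ih =>
    intro h d s τ R hs hb hI hH hQ hkill hlt
    rw [Nat.add_sub_cancel] at hlt
    apply peel R
    intro k hk hT v hv A hA
    rcases Nat.lt_or_ge c k with hck | hck
    · intro B hB
      exact hkill.zero hck hk hv hA hB
    rcases Nat.lt_or_ge m k with hkm | hkm
    · -- heavy, without a new slot
      have hQ' : ∀ B : Fin h → Sn n, DgV d B → QQ (s - 1) b (fixR (v * A) R B) := by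
        intro B hB
        rw [fixR_apply]
        exact heavy_full (by omega) hs hk (by omega) _ (hQ B hB) hv (pow_le_pow_left' U2_le _ hA)
      rcases Nat.lt_or_ge s 2 with hs2 | hs2
      · intro B hB
        have hs1 : s - 1 = 0 := by omega
        have h5 := hQ' B hB
        rw [hs1, fixR_apply] at h5
        exact lemmaV (by omega) (by omega) _ h5
      · obtain ⟨s', rfl⟩ : ∃ s', s = s' + 2 := ⟨s - 2, by omega⟩
        have e1 : s' + 2 - 1 = s' + 1 := rfl
        rw [e1] at hlt hQ'
        have h6 : (n + 2) * ((m + 1) * m + 2 * ((s' + 1) * c)) =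
            (n + 2) * (m * (m - 1) + 2 * (s' * c)) + (n + 2) * (2 * (m + c)) := by
          rcases Nat.eq_zero_or_pos m with h0 | h0
          · subst h0; ring
          · obtain ⟨m', rfl⟩ : ∃ m', m = m' + 1 := ⟨m - 1, by omega⟩
            rw [Nat.add_sub_cancel]; ring
        have h7 : (n + 2) * (2 * k) ≤ (n + 2) * (2 * (m + c)) :=
          Nat.mul_le_mul_left _ (by omega)
        have h8 : 2 * ((n + 2) * k) = (n + 2) * (2 * k) := by ring
        have hkτ : k ≤ τ := by
          by_contra hcon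
          rw [not_le] at hcon
          have h9 : (n + 2) * τ ≤ (n + 2) * k := Nat.mul_le_mul_left _ hcon.le
          omega
        refine ih h d (s' + 1) (τ - k) (fixR (v * A) R) (by omega) (by omega)
          (inv_fix hk R hI hT hv hA) (hom_fix hk hkτ R hH hv hA) hQ' (hkill.fix hk hv hA) ?_
        obtain ⟨τ', rfl⟩ : ∃ τ', τ = τ' + k := ⟨τ - k, by omega⟩
        simp only [Nat.add_sub_cancel]
        have h9 : 2 * ((n + 2) * (τ' + k)) = 2 * ((n + 2) * τ') + 2 * ((n + 2) * k) := by ring
        omega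
    · -- light
      have hQ' : ∀ B : Fin h → Sn n, DgV d B → QQ s b (fixR (v * A) R B) := by
        intro B hB
        rw [fixR_apply]
        refine light hs (by omega) (by omega) (R B) (hQ B hB) ?_ hv hA
        intro j hj hjb w hw A' hA'
        exact hT j hj hjb w hw A' hA' B hB
      have h6 : (n + 2) * ((m + 1) * m + 2 * ((s - 1) * c)) =
          (n + 2) * (m * (m - 1) + 2 * ((s - 1) * c)) + (n + 2) * (2 * m) := by
        rcases Nat.eq_zero_or_pos m with h0 | h0
        · subst h0; ring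
        · obtain ⟨m', rfl⟩ : ∃ m', m = m' + 1 := ⟨m - 1, by omega⟩
          rw [Nat.add_sub_cancel]; ring
      have h7 : (n + 2) * (2 * k) ≤ (n + 2) * (2 * m) := Nat.mul_le_mul_left _ (by omega)
      have h8 : 2 * ((n + 2) * k) = (n + 2) * (2 * k) := by ring
      have hkτ : k ≤ τ := by
        by_contra hcon
        rw [not_le] at hcon
        have h9 : (n + 2) * τ ≤ (n + 2) * k := Nat.mul_le_mul_left _ hcon.le
        omega
      refine ih h d s (τ - k) (fixR (v * A) R) hs (by omega)
        (inv_fix hk R hI hT hv hA) (hom_fix hk hkτ R hH hv hA) hQ' (hkill.fix hk hv hA) ?_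
      obtain ⟨τ', rfl⟩ : ∃ τ', τ = τ' + k := ⟨τ - k, by omega⟩
      simp only [Nat.add_sub_cancel]
      have h9 : 2 * ((n + 2) * (τ' + k)) = 2 * ((n + 2) * τ') + 2 * ((n + 2) * k) := by ring
      omega

/-- The statement of `joint` (row J1). -/
def Joint : Prop :=
  ∀ {h m b s τ : ℕ}, 1 ≤ s → 1 ≤ b → ∀ (d : Fin h → ℕ) (R : Fam 1 h m), InvR b d R →
    HomR b d τ R → (∀ B, DgV d B → QQ s b (R B)) → 2 * ∑ i, d i + 3 * ((s - 1) * b) < 6 * τ →
    ∀ B, DgV d B → IsK (linS (1 + 2)) b (R B)

/-- The statement of `zero_of_isK` (row J2), for `n = 1`. -/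
def ZeroK : Prop :=
  ∀ {h m b τ : ℕ} (d : Fin h → ℕ) (R : Fam 1 h m), (∀ B, IsSymm (R B)) → InvR b d R →
    HomR b d τ R → (∀ B, DgV d B → IsK (linS (1 + 2)) b (R B)) →
    (∀ t', t' ≤ τ → KK2 1 m b t') → ∀ B, DgV d B → Van b (R B)

/-- Symmetry moves the vanishing of the first slot to all slots. -/
lemma kill_of_first {n b c h m : ℕ} {d : Fin h → ℕ} (R : Fam n h (m + 1))
    (hsy : ∀ B, IsSymm (R B))
    (hfirst : ∀ B, DgV d B → ∀ w ∈ ZZ n ^ (c + 1), ∀ Q ∈ linS (n + 2) ^ (b - (c + 1)),
      Van b ((R B).curryLeft (w * Q))) : Kill b c d R := by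
  intro B hB P hP i w hw Q hQ hPi
  have h1 := hsy B (Equiv.swap 0 i) P
  rw [← h1]
  have h2 := hfirst B hB w hw Q hQ (fun j => P (Equiv.swap 0 i j.succ)) (fun j => hP _)
  rw [MultilinearMap.curryLeft_apply] at h2
  rw [← h2]
  congr 1
  funext j
  refine Fin.cases ?_ (fun j => ?_) j
  · rw [Fin.cons_zero, Equiv.swap_apply_left, hPi]
  · rw [Fin.cons_succ]

/-- **J4.** -/
theorem jcore {a b : ℕ} (third : Third 1) (lemmaV : LemV 1) (joint : Joint) (zeroK : ZeroK)
    (ha : 1 ≤ a) (hab : 2 * a ≤ b) :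
    ∀ (m h s τ : ℕ) (R : Fam 1 h m), m < a → 1 ≤ s → (∀ B, IsSymm (R B)) →
      InvR b (fun _ => b - a) R → HomR b (fun _ => b - a) τ R →
      (∀ B : Fin h → Sn 1, DgV (fun _ => b - a) B → QQ s b (R B)) →
      (∀ m', m' < a → ∀ t', t' ≤ τ + h * a → KK2 1 m' b t') →
      2 * (h * (b - a)) + 2 * ((s - 1) * (b + 2 * a)) + a * (a - 1) < 6 * τ →
      ∀ B : Fin h → Sn 1, DgV (fun _ => b - a) B → Van b (R B) := by
  intro m
  induction m with
  | zero =>
    intro h s τ R hm hs hsy hI hH hQ hKK hlt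
    refine van_zero third R hI hH ?_
    rw [Finset.sum_const, Finset.card_univ, Fintype.card_fin, smul_eq_mul]
    omega
  | succ m ih =>
    intro h s τ R hm hs hsy hI hH hQ hKK hlt
    have haτ : 2 ≤ s → a ≤ τ := by
      intro hs2
      obtain ⟨s', rfl⟩ : ∃ s', s = s' + 2 := ⟨s - 2, by omega⟩
      have e1 : s' + 2 - 1 = s' + 1 := rfl
      rw [e1] at hlt
      have h1 : (s' + 1) * (b + 2 * a) = s' * (b + 2 * a) + (b + 2 * a) := by ring
      omega
    have hcons : (Fin.cons (b - a) (fun _ => b - a) : Fin (h + 1) → ℕ) = fun _ => b - a := by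
      funext i
      refine Fin.cases ?_ (fun j => ?_) i
      · rfl
      · rfl
    have hkill : Kill b (a - 1) (fun _ => b - a) R := by
      have ha1 : a - 1 + 1 = a := by omega
      refine kill_of_first R hsy ?_
      rw [ha1]
      intro B hB w hw Q hQ'
      have hI' := inv_heavy (by omega) R hI hw
      rw [hcons] at hI'
      have hQ2 : ∀ B' : Fin (h + 1) → Sn 1, DgV (fun _ => b - a) B' →
          QQ (s - 1) b (heavyR w R B') := by
        intro B' hB'
        rw [heavyR_apply]
        exact heavy_full (by omega) hs (by omega) (by omega) _ (hQ _ (fun i => hB' i.succ)) hw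
          (hB' 0)
      have hB' : DgV (fun _ => b - a) (Fin.cons Q B : Fin (h + 1) → Sn 1) := by
        intro i
        refine Fin.cases ?_ (fun j => ?_) i
        · simpa using hQ'
        · simpa using hB j
      have hgoal : Van b (heavyR w R (Fin.cons Q B)) := by
        rcases Nat.lt_or_ge s 2 with hs2 | hs2
        · have hs1 : s - 1 = 0 := by omega
          have h5 := hQ2 _ hB'
          rw [hs1] at h5
          exact lemmaV (by omega) (by omega) _ h5
        · have haτ' := haτ hs2
          have hH' := hom_heavy (by omega) haτ' R hH hw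
          rw [hcons] at hH'
          refine ih (h + 1) (s - 1) (τ - a) (heavyR w R) (by omega) (by omega) ?_ hI' hH' hQ2 ?_ ?_
            _ hB'
          · intro B'
            rw [heavyR_apply]
            exact (hsy _).curryLeft _
          · intro m' hm' t' ht'
            refine hKK m' hm' t' ?_
            have h6 : (h + 1) * a = h * a + a := by ring
            omega
          · obtain ⟨τ', rfl⟩ : ∃ τ', τ = τ' + a := ⟨τ - a, by omega⟩
            obtain ⟨s', rfl⟩ : ∃ s', s = s' + 2 := ⟨s - 2, by omega⟩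
            obtain ⟨b', rfl⟩ : ∃ b', b = b' + a := ⟨b - a, by omega⟩
            simp only [Nat.add_sub_cancel] at hlt ⊢
            have e1 : s' + 2 - 1 = s' + 1 := rfl
            have e2 : s' + 1 - 1 = s' := rfl
            rw [e1] at hlt ⊢
            rw [e2]
            have h6 : (h + 1) * b' = h * b' + b' := by ring
            have h7 : (s' + 1) * (b' + a + 2 * a) = s' * (b' + a + 2 * a) + (b' + a + 2 * a) := by
              ring
            omega
      have h9 : heavyR w R (Fin.cons Q B) = (R B).curryLeft (w * Q) := by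
        rw [heavyR_apply, Fin.cons_zero]
        rfl
      rw [h9] at hgoal
      exact hgoal
    -- light or joint
    by_cases hl : 2 * (1 * ∑ _i : Fin h, (b - a)) + (1 + 2) * ((m + 1) * (m + 1 - 1) +
        2 * ((s - 1) * (a - 1))) < 2 * ((1 + 2) * τ)
    · exact light_core third lemmaV (m + 1) h (fun _ => b - a) s τ R hs (by omega) hI hH hQ hkill hl
    · have hsum : ∑ _i : Fin h, (b - a) = h * (b - a) := by
        rw [Finset.sum_const, Finset.card_univ, Fintype.card_fin, smul_eq_mul]
      have hj : 2 * ∑ _i : Fin h, (b - a) + 3 * ((s - 1) * b) < 6 * τ := by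
        rw [hsum] at hl ⊢
        rw [Nat.add_sub_cancel] at hl
        by_contra hcon
        rw [not_lt] at hcon hl
        have h1 : (m + 1) * m ≤ a * (a - 1) := Nat.mul_le_mul (by omega) (by omega)
        have h2 : (s - 1) * (a - 1) ≤ (s - 1) * a := Nat.mul_le_mul_left _ (by omega)
        have h3 : (s - 1) * (b + 2 * a) = (s - 1) * b + 2 * ((s - 1) * a) := by ring
        omega
      exact zeroK (fun _ => b - a) R hsy hI hH (joint hs (by omega) (fun _ => b - a) R hI hH hQ hj)
        (fun t' ht' => hKK (m + 1) hm t' (le_trans ht' (Nat.le_add_right _ _)))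

/-- **The improved vanishing.** -/
theorem LJ_of {a b s t : ℕ} (third : Third 1) (lemmaV : LemV 1) (joint : Joint) (zeroK : ZeroK)
    (ha : 1 ≤ a) (hs : 1 ≤ s) (hb : 2 * a ≤ b)
    (hKK : ∀ a', a' < a → ∀ t', t' ≤ t → KK2 1 a' b t')
    (h0 : a * (a - 1) + 2 * ((s - 1) * (a - 1)) < 2 * t)
    (h1 : 2 * ((s - 1) * (b + 2 * a)) + a * (a - 1) < 6 * t)
    (F : Fm 1 a) (hsy : IsSymm F) (hI : Inv2 b F) (hH : Hom b t F) (hQ : QQ s b F) :
    Van b F := by
  obtain ⟨m, rfl⟩ : ∃ m, a = m + 1 := ⟨a - 1, by omega⟩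
  let R : Fam 1 0 (m + 1) := MultilinearMap.constOfIsEmpty ℂ (fun _ : Fin 0 => Sn 1) F
  let d : Fin 0 → ℕ := fun _ => b - (m + 1)
  have hIR : InvR b d R := fun z hz w hw B hB P hP => hI z hz w hw P hP
  have hHR : HomR b d t R := fun c hc B hB P hP => hH c hc P hP
  have hQR : ∀ B : Fin 0 → Sn 1, DgV d B → QQ s b (R B) := fun _ _ => hQ
  have hcons : (Fin.cons (b - (m + 1)) d : Fin 1 → ℕ) = fun _ => b - (m + 1) := by
    funext i
    refine Fin.cases ?_ (fun j => ?_) i
    · rfl
    · rfl
  have hkill : Kill b m d R := by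
    refine kill_of_first R (fun _ => hsy) ?_
    intro B hB w hw Q hQ'
    have hI' := inv_heavy (by omega) R hIR hw
    rw [hcons] at hI'
    have hQ2 : ∀ B' : Fin 1 → Sn 1, DgV (fun _ => b - (m + 1)) B' →
        QQ (s - 1) b (heavyR w R B') := by
      intro B' hB'
      rw [heavyR_apply]
      exact heavy_full (by omega) hs (by omega) le_rfl _ (hQR _ (fun i => hB' i.succ)) hw
        (hB' 0)
    have hB' : DgV (fun _ => b - (m + 1)) (Fin.cons Q B : Fin 1 → Sn 1) := by
      intro i
      refine Fin.cases ?_ (fun j => ?_) i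
      · simpa using hQ'
      · simpa using hB j
    have hgoal : Van b (heavyR w R (Fin.cons Q B)) := by
      rcases Nat.lt_or_ge s 2 with hs2 | hs2
      · have hs1 : s - 1 = 0 := by omega
        have h5 := hQ2 _ hB'
        rw [hs1] at h5
        exact lemmaV (by omega) (by omega) _ h5
      · have haτ : m + 1 ≤ t := by
          obtain ⟨s', rfl⟩ : ∃ s', s = s' + 2 := ⟨s - 2, by omega⟩
          have e1 : s' + 2 - 1 = s' + 1 := rfl
          rw [e1] at h1
          have h2 : (s' + 1) * (b + 2 * (m + 1)) =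
              s' * (b + 2 * (m + 1)) + (b + 2 * (m + 1)) := by ring
          omega
        have hH' := hom_heavy (by omega) haτ R hHR hw
        rw [hcons] at hH'
        refine jcore third lemmaV joint zeroK ha hb m 1 (s - 1) (t - (m + 1)) (heavyR w R)
          (by omega) (by omega) ?_ hI' hH' hQ2 ?_ ?_ _ hB'
        · intro B'
          rw [heavyR_apply]
          exact hsy.curryLeft _
        · intro m' hm' t' ht'
          exact hKK m' hm' t' (by omega)
        · obtain ⟨t', rfl⟩ : ∃ t', t = t' + (m + 1) := ⟨t - (m + 1), by omega⟩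
          obtain ⟨s', rfl⟩ : ∃ s', s = s' + 2 := ⟨s - 2, by omega⟩
          obtain ⟨b', rfl⟩ : ∃ b', b = b' + (m + 1) := ⟨b - (m + 1), by omega⟩
          simp only [Nat.add_sub_cancel] at h1 ⊢
          have e1 : s' + 2 - 1 = s' + 1 := rfl
          have e2 : s' + 1 - 1 = s' := rfl
          rw [e1] at h1 ⊢
          rw [e2]
          have h7 : (s' + 1) * (b' + (m + 1) + 2 * (m + 1)) =
              s' * (b' + (m + 1) + 2 * (m + 1)) + (b' + (m + 1) + 2 * (m + 1)) := by
            ring
          omega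
    have h9 : heavyR w R (Fin.cons Q B) = (R B).curryLeft (w * Q) := by
      rw [heavyR_apply, Fin.cons_zero]
      rfl
    rw [h9] at hgoal
    exact hgoal
  have hfin := light_core third lemmaV (m + 1) 0 d s t R hs hb hIR hHR hQR hkill ?_
    (fun i => i.elim0) (fun i => i.elim0)
  · exact hfin
  · rw [Finset.univ_eq_empty, Finset.sum_empty]
    rw [Nat.add_sub_cancel] at h0 ⊢
    omega

end Vale.Agent.P181.TM.H151
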