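import Vale.Agent.P181.R2.H280.NDefs

/-!
P181: forms invariant under all shears `X 0 ↦ X 0 + z`, `X 1 ↦ X 1 + w`.
-/

set_option autoImplicit false

open MvPolynomial

namespace Vale.Agent.P181.TM

open Vale.Agent.P181 Vale.Agent.P181.H536 Vale.Agent.P181.H280 Vale.Agent.P181.TN

/-- Invariance under all the shears `X 0 ↦ X 0 + z`, `X 1 ↦ X 1 + w` in degree `b`. -/
def Inv2 (b : ℕ) {n a : ℕ} (F : Fm n a) : Prop :=
  ∀ z ∈ ZZ n, ∀ w ∈ ZZ n, ∀ P : Fin a → Sn n, Dg b P → F (fun i => shr n z w (P i)) = F P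

/-- The statement `K(a, b, t)` for forms invariant under all the shears. -/
def KK2 (n a b t : ℕ) : Prop :=
  ∀ F : Fm n a, IsSymm F → Inv2 b F → Hom b t F → IsK (linS (n + 2)) b F → Van b F

variable {n : ℕ}

lemma Inv2.inv {b a : ℕ} {F : Fm n a} (h : Inv2 b F) : Inv b F :=
  fun z hz P hP => h z hz 0 (ZZ n).zero_mem P hP

lemma KK2_of_KK {a b t : ℕ} (h : KK n a b t) : KK2 n a b t :=
  fun F hs hI hH hK => h F hs hI.inv hH hK

lemma shr_Z {z w z' : Sn n} (hz' : z' ∈ ZZ n) : shr n z w z' = z' := by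
  rw [ZZ] at hz'
  induction hz' using Submodule.span_induction with
  | mem x hx =>
    obtain ⟨i, rfl⟩ := hx
    exact shr_succ z w i
  | zero => rw [map_zero]
  | add x y _ _ hx hy => rw [map_add, hx, hy]
  | smul c x _ hx => rw [map_smul, hx]

lemma shr_ZZ_pow {z w : Sn n} {k : ℕ} {v : Sn n} (hv : v ∈ ZZ n ^ k) : shr n z w v = v := by
  induction k generalizing v with
  | zero =>
    rw [pow_zero, Submodule.mem_one] at hv
    obtain ⟨r, rfl⟩ := hv
    exact AlgHom.commutes _ _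
  | succ k ih =>
    rw [pow_succ] at hv
    induction hv using Submodule.mul_induction_on' with
    | mem_mul_mem x hx y hy => rw [map_mul, ih hx, shr_Z hy]
    | add x _ y _ hx hy => rw [map_add, hx, hy]

lemma shr_ln (z w : Sn n) (x : ℂ) : shr n z w (ln n x) = ln n x + (z + x • w) := by
  rw [ln, map_add, map_smul, shr_zero, shr_one, smul_add]
  abel

lemma shr_U_sub {z w : Sn n} (hz : z ∈ ZZ n) (hw : w ∈ ZZ n) {u : Sn n} (hu : u ∈ U2 n) :
    shr n z w u - u ∈ ZZ n := by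
  obtain ⟨α, β, rfl⟩ := Submodule.mem_span_pair.1 hu
  rw [map_add, map_smul, map_smul, shr_zero, shr_one]
  have h1 : α • ((X 0 : Sn n) + z) + β • (X 1 + w) - (α • X 0 + β • X 1) = α • z + β • w := by
    rw [smul_add, smul_add]; abel
  rw [h1]
  exact (ZZ n).add_mem ((ZZ n).smul_mem _ hz) ((ZZ n).smul_mem _ hw)

lemma shr_mem {d : ℕ} {z w : Sn n} (hz : z ∈ ZZ n) (hw : w ∈ ZZ n) {P : Sn n}
    (hP : P ∈ linS (n + 2) ^ d) : shr n z w P ∈ linS (n + 2) ^ d := by
  have h1 : (linS (n + 2) ^ d).map (shr n z w).toLinearMap ≤ linS (n + 2) ^ d := by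
    rw [Submodule.map_pow]
    apply pow_le_pow_left'
    rw [linS_eq, Submodule.map_sup, sup_le_iff]
    constructor
    · rintro _ ⟨u, hu, rfl⟩
      change shr n z w u ∈ _
      have h2 : shr n z w u = u + (shr n z w u - u) := by abel
      rw [h2]
      exact Submodule.add_mem _ (Submodule.mem_sup_left hu)
        (Submodule.mem_sup_right (shr_U_sub hz hw hu))
    · rintro _ ⟨z', hz', rfl⟩
      change shr n z w z' ∈ _
      rw [shr_Z hz']
      exact Submodule.mem_sup_right hz'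
  exact h1 ⟨P, hP, rfl⟩

end Vale.Agent.P181.TM
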