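import Vale.Agent.P181.R2.H151.Core

/-!
P181: vanishing of the forms with `QQ s`, and the step in the degree.
-/

set_option autoImplicit false

open MvPolynomial

namespace Vale.Agent.P181.TM

open Vale.Agent.P181 Vale.Agent.P181.H536 Vale.Agent.P181.H280 Vale.Agent.P181.TN

/-- The statement of `third`. -/
def Third (n : ℕ) : Prop :=
  ∀ {h τ : ℕ} (d : Fin h → ℕ) (F : Fm n h),
    (∀ z ∈ ZZ n, ∀ w ∈ ZZ n, ∀ P : Fin h → Sn n, (∀ i, P i ∈ linS (n + 2) ^ d i) →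
      F (fun i => shr n z w (P i)) = F P) →
    (∀ c : ℂ, c ≠ 0 → ∀ P : Fin h → Sn n, (∀ i, P i ∈ linS (n + 2) ^ d i) →
      F (fun i => scal n c (P i)) = c ^ τ * F P) →
    n * ∑ i, d i < (n + 2) * τ → ∀ P : Fin h → Sn n, (∀ i, P i ∈ linS (n + 2) ^ d i) → F P = 0

/-- The statement of `lemmaV`. -/
def LemV (n : ℕ) : Prop :=
  ∀ {a b : ℕ}, 1 ≤ b → a ≤ b → ∀ F : Fm n a, QQ 0 b F → Van b F

/-- **`LS`.** -/
theorem LS_of {n : ℕ} (third : Third n) (lemmaV : LemV n) {a b s t : ℕ} (hs : 1 ≤ s)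
    (hb : 2 * a ≤ b) (F : Fm n a) (hI : Inv2 b F) (hH : Hom b t F) (hQ : QQ s b F)
    (h : 2 * (n * ((s - 1) * b)) + (n + 2) * (a * (a + 1)) < 2 * ((n + 2) * t)) : Van b F := by
  have h1 := core (n := n) (b := b) (fun {h τ} => third) (fun {a} => lemmaV) a 0
    (fun i => i.elim0) s t (MultilinearMap.constOfIsEmpty ℂ (fun _ : Fin 0 => Sn n) F) hs hb
    ?_ ?_ ?_ ?_ (fun i => i.elim0) (fun i => i.elim0)
  · exact h1
  · intro z hz w hw B hB P hP
    exact hI z hz w hw P hP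
  · intro c hc B hB P hP
    exact hH c hc P hP
  · intro B hB
    exact hQ
  · rw [Finset.univ_eq_empty, Finset.sum_empty, zero_add]
    exact h

/-- **The step.** -/
theorem KK2_step_of {n : ℕ} (third : Third n) (lemmaV : LemV n)
    (tstep2 : ∀ {s a b t : ℕ}, 1 ≤ s → (∀ t', t' + s ≤ t → KK2 n a b t') → ∀ F : Fm n a,
      IsSymm F → Inv2 (b + 1) F → Hom (b + 1) t F → IsK (linS (n + 2)) (b + 1) F →
      QQ s (b + 1) F)
    {a b s t : ℕ} (hs : 1 ≤ s) (hb : 2 * a ≤ b + 1) (hK : ∀ t', t' + s ≤ t → KK2 n a b t')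
    (h : 2 * (n * ((s - 1) * (b + 1))) + (n + 2) * (a * (a + 1)) < 2 * ((n + 2) * t)) :
    KK2 n a (b + 1) t := by
  intro F hsy hI hH hF
  exact LS_of third lemmaV hs hb F hI hH (tstep2 hs hK F hsy hI hH hF) h

/-- **Three rows.** -/
theorem three_of (third : Third 1) (lemmaV : LemV 1)
    (tstep2 : ∀ {s a b t : ℕ}, 1 ≤ s → (∀ t', t' + s ≤ t → KK2 1 a b t') → ∀ F : Fm 1 a,
      IsSymm F → Inv2 (b + 1) F → Hom (b + 1) t F → IsK (linS (1 + 2)) (b + 1) F →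
      QQ s (b + 1) F)
    (start : ∀ {N a b t : ℕ}, 1 ≤ N → a ≤ N + 1 →
      (∃ s, 1 ≤ s ∧ t + N * (2 * (s + 1).choose (1 + 1) - 1) ≤ s * b) → KK 1 a b t)
    (rec74 : ∀ (a : ℕ), 2 ≤ a → ∀ (K : ℕ → ℕ → Prop),
      (∀ b t s, 1 ≤ s → t + (a - 1) * (s * (s + 1) - 1) ≤ s * b → K b t) →
      (∀ b t s, 1 ≤ s → 2 * a ≤ b + 1 → (∀ t', t' + s ≤ t → K b t') →
        2 * ((s - 1) * (b + 1)) + 3 * (a * (a + 1)) < 6 * t → K (b + 1) t) →
      ∀ b t, 32 * a ^ 7 ≤ b ^ 4 → 3 * t ≤ a * b → K b t)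
    {a b : ℕ} (ha : 2 ≤ a) (hab : 32 * a ^ 7 ≤ b ^ 4) (t : ℕ) : KK2 1 a b t := by
  rcases Nat.lt_or_ge (a * b) (3 * t) with h3 | h3
  · -- beyond the last possible weight
    intro F _ hI hH _ P hP
    refine third (τ := t) (fun _ => b) F (fun z hz w hw P hP => hI z hz w hw P hP)
      (fun c hc P hP => hH c hc P hP) ?_ P hP
    rw [Finset.sum_const, Finset.card_univ, Fintype.card_fin, smul_eq_mul]
    omega
  · refine rec74 a ha (fun b t => KK2 1 a b t) ?_ ?_ b t hab h3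
    · intro b t s hs h
      apply KK2_of_KK
      refine start (N := a - 1) (by omega) (by omega) ⟨s, hs, ?_⟩
      have h1 : 2 * (s + 1).choose (1 + 1) = s * (s + 1) := by
        rw [Nat.choose_two_right, Nat.add_sub_cancel, Nat.mul_div_cancel']
        · ring
        · rw [mul_comm]
          exact (Nat.even_mul_succ_self s).two_dvd
      rw [h1]
      exact h
    · intro b t s hs hb hK h
      refine KK2_step_of third lemmaV tstep2 hs hb hK ?_
      omega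

end Vale.Agent.P181.TM
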