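import Vale.Agent.P181.R2.H151.Final2
import Vale.Agent.P181.H534.HW3

/-!
P181: the tail bound for three rows, as an inequality of multiplicities.
-/

set_option autoImplicit false

namespace Vale.Agent.P181.TM.H151

open Vale.Agent.P181 Vale.Agent.P181.H280

/-- **The quadratic tail bound.** -/
theorem tail3 {a b : ℕ} (ha : 3 ≤ a) (m : ℕ) (hm : 1 ≤ m) (lam : Fin 3 → ℕ)
    (h : 4 * lam 2 + (3 * (m * (m + 1)) - 2) * a ≤ 4 * (m * b)) :
    plethMult a b 3 lam ≤ plethMult b a 3 lam := by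
  have hsum : ∑ i : Fin 1, lam i.succ.succ = lam 2 := by
    rw [Fin.sum_univ_one]; rfl
  have hK : TM.KK2 1 a b (∑ i : Fin 1, lam i.succ.succ) := by
    rw [hsum]
    exact TM.KK2_cubic' ha hm le_rfl h (Or.inl le_rfl)
  exact TM.plethMult_of_KK2 (n := 1) lam hK

end Vale.Agent.P181.TM.H151
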