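import Vale.Agent.P181.R2.H151.Tail3

/-!
P181: all partitions with three rows, from the long ones and the tail bound.
-/

set_option autoImplicit false

namespace Vale.Agent.P181.TM.H151

open Vale.Agent.P181 Vale.Agent.P181.H280

/-- The numbers of the union. -/
lemma union_num {a b L : ℕ} (hL : b + 1 ≤ 2 ^ L) (ha : 15000 * L ≤ a)
    (hb : 1500000 * a ^ 5 * L ^ 3 ≤ b ^ 4) (hL0 : 1 ≤ L) :
    ∃ N m : ℕ, 0 < N ∧ 4 * a * L ≤ N * N ∧ 60 * N + 72 ≤ a ∧ 10 * a * L + 30 ≤ b ∧ 1 ≤ m ∧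
      4 * (200 * a * L * N + 23 * b) + (3 * (m * (m + 1)) - 2) * a ≤ 4 * (m * b) := by
  -- the size of `L`
  have h1 : 20 ≤ L := by
    by_contra hcon
    have h2 : L ≤ 19 := by omega
    have h3 : (2 : ℕ) ^ L ≤ 2 ^ 19 := Nat.pow_le_pow_right (by norm_num) h2
    have h4 : b ≤ 2 ^ 19 := by omega
    have h5 : b ^ 4 ≤ (2 ^ 19) ^ 4 := Nat.pow_le_pow_left h4 4
    have h6 : (15000 : ℕ) ^ 5 ≤ a ^ 5 := Nat.pow_le_pow_left (by omega) 5
    have h7 : 1 ≤ L ^ 3 := Nat.one_le_pow _ _ hL0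
    have h8 : 1500000 * 15000 ^ 5 * 1 ≤ 1500000 * a ^ 5 * L ^ 3 :=
      Nat.mul_le_mul (Nat.mul_le_mul_left _ h6) h7
    have h9 := h8.trans (hb.trans h5)
    norm_num at h9
  have ha1 : 300000 ≤ a := by omega
  set S := a * L with hS
  have hSa : 20 * a ≤ S := by rw [hS]; nlinarith
  -- `b` against `S`
  have h2 : 387 * S ≤ b := by
    refine (Nat.pow_le_pow_iff_left (n := 4) (by norm_num)).1 ?_
    calc (387 * S) ^ 4 = 387 ^ 4 * (a ^ 4 * L ^ 3 * L) := by rw [hS]; ring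
      _ ≤ 1500000 * 15000 * (a ^ 4 * L ^ 3 * L) := Nat.mul_le_mul_right _ (by norm_num)
      _ = 1500000 * (a ^ 4 * L ^ 3 * (15000 * L)) := by ring
      _ ≤ 1500000 * (a ^ 4 * L ^ 3 * a) :=
          Nat.mul_le_mul_left _ (Nat.mul_le_mul_left _ ha)
      _ = 1500000 * a ^ 5 * L ^ 3 := by ring
      _ ≤ b ^ 4 := hb
  -- the square root
  set x := Nat.sqrt (4 * S) with hx
  have hx1 : x * x ≤ 4 * S := Nat.sqrt_le (4 * S)
  have hx2 : 4 * S < (x + 1) * (x + 1) := Nat.lt_succ_sqrt (4 * S)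
  have hx3 : 4898 ≤ x := by
    by_contra hcon
    have h3 : (x + 1) * (x + 1) ≤ 4898 * 4898 := Nat.mul_le_mul (by omega) (by omega)
    omega
  have hx4 : 4898 * x ≤ 4 * S := le_trans (Nat.mul_le_mul_right _ hx3) hx1
  have hx5 : (x + 1) * (x + 1) ≤ 4 * S + 3 * x := by
    have : (x + 1) * (x + 1) = x * x + 2 * x + 1 := by ring
    omega
  -- `60 N + 72 ≤ a`
  have h3 : 6000 * x ≤ 98 * a := by
    refine Nat.mul_self_le_mul_self_iff.1 ?_
    have e1 : 6000 * x * (6000 * x) = 36000000 * (x * x) := by ring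
    have e2 : 98 * a * (98 * a) = 9604 * (a * a) := by ring
    have e3 : a * (15000 * L) ≤ a * a := Nat.mul_le_mul_left _ ha
    have e4 : a * (15000 * L) = 15000 * S := by rw [hS]; ring
    rw [e1, e2]
    omega
  -- the quadratic inequality
  have h4 : 600 * a * S * (x + 1) + 72 * a * b ≤ b * b := by
    have e1 : 107 * (72 * a * b) ≤ b * b := by
      have : 7740 * a ≤ b := by omega
      calc 107 * (72 * a * b) = 7704 * a * b := by ring
        _ ≤ b * b := Nat.mul_le_mul_right _ (by omega)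
    have e2 : 107 * (600 * a * S * (x + 1)) ≤ 106 * (b * b) := by
      refine Nat.mul_self_le_mul_self_iff.1 ?_
      calc 107 * (600 * a * S * (x + 1)) * (107 * (600 * a * S * (x + 1))) =
            107 ^ 2 * 360000 * (a * S * (a * S)) * ((x + 1) * (x + 1)) := by ring
        _ ≤ 107 ^ 2 * 360000 * (a * S * (a * S)) * (4 * S + 3 * x) := Nat.mul_le_mul_left _ hx5
        _ ≤ 106 ^ 2 * 1500000 * (a * S * (a * S)) * S := by
            have h5 : 107 ^ 2 * 360000 * (4 * S + 3 * x) ≤ 106 ^ 2 * 1500000 * S := by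
              norm_num
              omega
            calc 107 ^ 2 * 360000 * (a * S * (a * S)) * (4 * S + 3 * x) =
                  (a * S * (a * S)) * (107 ^ 2 * 360000 * (4 * S + 3 * x)) := by ring
              _ ≤ (a * S * (a * S)) * (106 ^ 2 * 1500000 * S) := Nat.mul_le_mul_left _ h5
              _ = _ := by ring
        _ = 106 ^ 2 * (1500000 * a ^ 5 * L ^ 3) := by rw [hS]; ring
        _ ≤ 106 ^ 2 * b ^ 4 := Nat.mul_le_mul_left _ hb
        _ = 106 * (b * b) * (106 * (b * b)) := by ring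
    omega
  -- the slope
  set m := 2 * b / (3 * a) with hm
  have hm1 : 3 * a * m ≤ 2 * b := Nat.mul_div_le (2 * b) (3 * a)
  have hm2 : 2 * b < 3 * a * m + 3 * a := by
    have h5 := Nat.lt_mul_div_succ (2 * b) (show 0 < 3 * a by omega)
    rw [← hm] at h5
    have e : 3 * a * (m + 1) = 3 * a * m + 3 * a := by ring
    omega
  have hm3 : 1 ≤ m := by
    rw [hm, Nat.one_le_div_iff (by omega)]
    omega
  refine ⟨x + 1, m, by omega, ?_, by omega, ?_, hm3, ?_⟩
  · have e : 4 * a * L = 4 * S := by rw [hS]; ring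
    omega
  · have e : 10 * a * L = 10 * S := by rw [hS]; ring
    omega
  · obtain ⟨u, hu⟩ := Nat.exists_eq_add_of_le hm1
    have hu1 : u < 3 * a := by omega
    have e1 : 200 * a * L * (x + 1) = 200 * S * (x + 1) := by rw [hS]; ring
    rw [e1]
    have e2 : 4 * (m * b) = m * (3 * a * m) + 2 * (m * b) + m * u := by
      have : 4 * (m * b) = m * (2 * b) + 2 * (m * b) := by ring
      rw [this, hu]; ring
    have e3 : (3 * (m * (m + 1)) - 2) * a ≤ m * (3 * a * m) + 3 * a * m := by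
      calc (3 * (m * (m + 1)) - 2) * a ≤ (3 * (m * (m + 1))) * a :=
            Nat.mul_le_mul_right _ (Nat.sub_le _ _)
        _ = _ := by ring
    -- `2 m b ≥ 3 a m + 800 S (x + 1) + 92 b`
    have e4 : 3 * a * m + (4 * (200 * S * (x + 1)) + 92 * b) ≤ 2 * (m * b) := by
      refine Nat.le_of_mul_le_mul_left (c := 3 * a) ?_ (by omega)
      have f1 : 3 * a * (2 * (m * b)) = 2 * b * (3 * a * m) := by ring
      have f2 : 2 * b * (2 * b) ≤ 2 * b * (3 * a * m) + 2 * b * (3 * a) := by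
        rw [← Nat.mul_add]
        exact Nat.mul_le_mul_left _ hm2.le
      have f3 : 3 * a * (3 * a * m + (4 * (200 * S * (x + 1)) + 92 * b)) =
          3 * a * (3 * a * m) + 4 * (600 * a * S * (x + 1)) + 276 * (a * b) := by ring
      have f4 : 3 * a * (3 * a * m) ≤ 3 * a * (2 * b) := Nat.mul_le_mul_left _ hm1
      have f5 : 3 * a * (2 * b) = 6 * (a * b) := by ring
      have f6 : 2 * b * (2 * b) = 4 * (b * b) := by ring
      have f7 : 2 * b * (3 * a) = 6 * (a * b) := by ring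
      have f8 : 72 * a * b = 72 * (a * b) := by ring
      omega
    omega

/-- **All partitions with three rows**, from the long ones. -/
theorem three_all_of {a b L : ℕ}
    (all_long : ∀ (N : ℕ) (lam : Fin 3 → ℕ), lam 0 + lam 1 + lam 2 = a * b → lam 2 ≤ lam 1 →
      lam 1 ≤ lam 0 → b + 1 ≤ 2 ^ L → 4 * a * L ≤ N * N → 0 < N → 60 * N + 72 ≤ a →
      10 * a * L + 30 ≤ b → 200 * a * L * N + 23 * b ≤ lam 2 →
      plethMult a b 3 lam ≤ plethMult b a 3 lam)
    (hL : b + 1 ≤ 2 ^ L) (ha : 15000 * L ≤ a) (hL0 : 1 ≤ L)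
    (hb : 1500000 * a ^ 5 * L ^ 3 ≤ b ^ 4) (lam : Fin 3 → ℕ)
    (hsum : lam 0 + lam 1 + lam 2 = a * b) (h21 : lam 2 ≤ lam 1) (h10 : lam 1 ≤ lam 0) :
    plethMult a b 3 lam ≤ plethMult b a 3 lam := by
  obtain ⟨N, m, hN0, hN, hNa, hab, hm, h⟩ := union_num hL ha hb hL0
  rcases Nat.lt_or_ge (lam 2) (200 * a * L * N + 23 * b) with h3 | h3
  · exact tail3 (by omega) m hm lam (by omega)
  · exact all_long N lam hsum h21 h10 hL hN hN0 hNa hab h3

end Vale.Agent.P181.TM.H151
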